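import Vale.Agent.P088.R2.H238.DM.Spec
import Vale.Agent.P088.Bdl.B10

/-!
# P088, SOLV: smoothness up to the boundary, assembly
-/

set_option linter.all false

open Manifold MeasureTheory Set Filter Topology
open scoped ContDiff

noncomputable section

namespace Vale.Agent.P088.DM

open Vale.Agent.P088.EYM

variable {n N : ℕ} [NeZero n]

theorem box_open (z : E n) (r : ℝ) : IsOpen {x : E n | ∀ i, |x i - z i| < r} := by
  rw [show {x : E n | ∀ i, |x i - z i| < r} = ⋂ i, {x : E n | |x i - z i| < r} by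
    ext x; simp]
  refine isOpen_iInter_of_finite fun i => isOpen_lt ?_ continuous_const
  exact ((continuous_coord i).sub continuous_const).abs

theorem Bx_rel (z : E n) (r : ℝ) : RelOpen (Bx z r) :=
  ⟨_, box_open z r, rfl⟩

theorem Bo_open (z : E n) (r : ℝ) : IsOpen (Bo z r) :=
  (box_open z r).inter (isOpen_lt continuous_const (continuous_coord 0))

theorem Bo_sub_Bx (z : E n) (r : ℝ) : Bo z r ⊆ Bx z r := fun _ hx => ⟨hx.1, hx.2.le⟩

theorem Bo_eq (z : E n) (r : ℝ) : Bx z r ∩ {x | 0 < x 0} = Bo z r := by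
  ext x
  exact ⟨fun h => ⟨h.1.1, h.2⟩, fun h => ⟨⟨h.1, h.2.le⟩, h.2⟩⟩

theorem Bo_Hs (z : E n) (r : ℝ) : Bo z r ⊆ Hs n := fun _ hx => hx.2.le

theorem Bx_Hs (z : E n) (r : ℝ) : Bx z r ⊆ Hs n := fun _ hx => hx.2

theorem Bo_rel (z : E n) (r : ℝ) : RelOpen (Bo z r) :=
  CHarm_relOpen_of_open (Bo_open z r) (Bo_Hs z r)

theorem Bx_mono (z : E n) {r' r : ℝ} (h : r' ≤ r) : Bx z r' ⊆ Bx z r :=
  fun _ hx => ⟨fun i => (hx.1 i).trans_le h, hx.2⟩

theorem Bo_mono (z : E n) {r' r : ℝ} (h : r' ≤ r) : Bo z r' ⊆ Bo z r :=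
  fun _ hx => ⟨fun i => (hx.1 i).trans_le h, hx.2⟩

theorem cp_abs_le (p : Fin N × Bool) (v : Fib N) : |AIReal_cp p v| ≤ ‖v‖ := by
  rw [AIReal_cp_apply]
  have h : ‖v p.1‖ ≤ ‖v‖ := PiLp.norm_apply_le v p.1
  split_ifs
  · exact (Complex.abs_im_le_norm _).trans h
  · exact (Complex.abs_re_le_norm _).trans h

theorem cp_sq_le (p : Fin N × Bool) (v : Fib N) : AIReal_cp p v ^ 2 ≤ ‖v‖ ^ 2 := by
  rw [← sq_abs]
  exact pow_le_pow_left₀ (abs_nonneg _) (cp_abs_le p v) 2

theorem comps_smooth {D : Set (E n)} {c : E n → Fib N} (hc : ContDiffOn ℝ ∞ c D)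
    (p : Fin N × Bool) : ContDiffOn ℝ ∞ (comps c p) D := by
  rw [AIReal_comps]
  exact (AIReal_cp p).contDiff.comp_contDiffOn hc

theorem pd_comps {D : Set (E n)} (hD : RelOpen D) {c : E n → Fib N} (hc : ContDiffOn ℝ ∞ c D)
    (p : Fin N × Bool) {x : E n} (hx : x ∈ D) (j : Fin n) :
    pd j (comps c p) x = AIReal_cp p (pd j c x) := by
  rw [AIReal_comps]
  exact hD.pd_clm (AIReal_cp p) hc hx j

/-- (REG, rows 6, 7, 8) regularity up to the boundary for systems. -/
def RowREG : Prop := ∀ (n : ℕ) [NeZero n] (ι : Type) [Fintype ι] (S : BSys n ι) (z : E n)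
  (r r' : ℝ), z 0 = 0 → 0 < r' → r' < r → S.Ok (Bx z r) → ∀ u : ι → E n → ℝ, BSol S z r u →
  ∀ b : ι, ∃ w : E n → ℝ, ContDiffOn ℝ ∞ w (Bx z r') ∧ (∀ x ∈ Bo z r', w x = u b x) ∧
    ∀ x ∈ Bx z r', x 0 = 0 → w x = 0

theorem rowREG (hL : RowL) (hX : RowX) : RowREG := by
  intro n _ ι _ S z r r' hz hr' hrr hS u hu b
  set r1 : ℝ := (r' + r) / 2 with hr1
  have h1 : r' < r1 := by rw [hr1]; linarith
  have h2 : r1 < r := by rw [hr1]; linarith
  refine hX n z r1 r' hz hr' h1 (u b) ((hu.smooth b).mono (Bo_mono z h2.le))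
    (fun l => hL n ι S z r r1 hz (hr'.trans h1) h2 hS u hu b l) ?_
  obtain ⟨C, hC⟩ := hu.tr
  refine ⟨C, fun e he => le_trans ?_ (hC e he b)⟩
  refine setIntegral_mono_set ((hu.l2 b).mono_set inter_subset_left)
    (Eventually.of_forall fun x => sq_nonneg _) (Eventually.of_forall ?_)
  rintro x ⟨hx1, hx2⟩
  exact ⟨Bo_mono z h2.le hx1, hx2⟩

/-- (BDRY) -/
theorem rowBDRY (hG : RowREG) (hR : RowREAL) : RowBDRY := by
  intro n N _ L z r r' hz hr' hrr hok c g hc hLc hg hint htr
  obtain ⟨S, hS, hSe⟩ := hR n N L (Bx z r) (Bx_rel z r) hok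
  have hBo := Bo_rel (n := n) z r
  have hgo : ContDiffOn ℝ ∞ g (Bo z r) := hg.mono (Bo_sub_Bx z r)
  have hcg : ContDiffOn ℝ ∞ (fun x => c x - g x) (Bo z r) := hc.sub hgo
  set v : E n → Fib N := fun x => c x - g x with hv
  have hoko : L.Ok (Bo z r) := CHarm_ok_mono hok (Bo_sub_Bx z r)
  have hLv : ∀ x ∈ Bo z r, Lop L v x = - Lop L g x := by
    intro x hx
    rw [hv, CNear_Lop_sub hBo hoko hc hgo hx, hLc x hx, zero_sub]
  let S' : BSys n (Fin N × Bool) :=
    { toRSys := S
      G := fun b x => - comps (Lop L g) b x }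
  have hS' : S'.Ok (Bx z r) :=
    ⟨hS, fun b => (comps_smooth (CHarm_Lop_smooth (Bx_rel z r) hok hg) b).neg⟩
  have hsol : BSol S' z r (comps v) := by
    refine ⟨fun b => comps_smooth hcg b, ?_, ?_, ?_, ?_⟩
    · intro x hx b
      have h := hSe v (by rw [Bo_eq]; exact hcg) x (Bo_sub_Bx z r hx) hx.2 b
      rw [show S'.a = S.a from rfl, show S'.M = S.M from rfl, show S'.Z = S.Z from rfl, h]
      congr 1
      show comps (Lop L v) b x = - comps (Lop L g) b x
      rw [AIReal_comps, AIReal_comps]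
      simp only
      rw [hLv x hx, map_neg]
    · intro b
      refine Integrable.mono' hint ?_ ?_
      · exact ((comps_smooth hcg b).continuousOn.pow 2).aestronglyMeasurable
          (Bo_open z r).measurableSet
      · refine (ae_restrict_mem (Bo_open z r).measurableSet).mono fun x hx => ?_
        rw [Real.norm_eq_abs, abs_of_nonneg (sq_nonneg _), AIReal_comps]
        have h1 := cp_sq_le b (v x)
        have h2 : 0 ≤ ∑ j, ‖pd j (fun y => c y - g y) x‖ ^ 2 :=
          Finset.sum_nonneg fun j _ => sq_nonneg _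
        have h3 : ‖v x‖ ^ 2 = ‖c x - g x‖ ^ 2 := rfl
        simp only
        linarith
    · intro b j
      refine Integrable.mono' hint ?_ ?_
      · exact ((hBo.pd_smooth (comps_smooth hcg b) j).continuousOn.pow 2).aestronglyMeasurable
          (Bo_open z r).measurableSet
      · refine (ae_restrict_mem (Bo_open z r).measurableSet).mono fun x hx => ?_
        rw [Real.norm_eq_abs, abs_of_nonneg (sq_nonneg _), pd_comps hBo hcg b hx j]
        have h1 := cp_sq_le b (pd j v x)
        have h2 : ‖pd j v x‖ ^ 2 ≤ ∑ j, ‖pd j (fun y => c y - g y) x‖ ^ 2 :=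
          Finset.single_le_sum (f := fun j => ‖pd j (fun y => c y - g y) x‖ ^ 2)
            (fun j _ => sq_nonneg _) (Finset.mem_univ j)
        have h3 : 0 ≤ ‖c x - g x‖ ^ 2 := sq_nonneg _
        linarith
    · obtain ⟨C, hC⟩ := htr
      refine ⟨C, fun e he b => le_trans ?_ (hC e he)⟩
      have hm : MeasurableSet (Bo z r ∩ {x : E n | x 0 < e}) :=
        (Bo_open z r).measurableSet.inter
          (isOpen_lt (continuous_coord 0) continuous_const).measurableSet
      have hi : IntegrableOn (fun x => ‖c x - g x‖ ^ 2) (Bo z r) := by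
        refine Integrable.mono' hint ?_ ?_
        · exact (hcg.continuousOn.norm.pow 2).aestronglyMeasurable (Bo_open z r).measurableSet
        · refine (ae_restrict_mem (Bo_open z r).measurableSet).mono fun x hx => ?_
          rw [Real.norm_eq_abs, abs_of_nonneg (sq_nonneg _)]
          have h2 : 0 ≤ ∑ j, ‖pd j (fun y => c y - g y) x‖ ^ 2 :=
            Finset.sum_nonneg fun j _ => sq_nonneg _
          linarith
      have hi' : IntegrableOn (fun x => ‖c x - g x‖ ^ 2) (Bo z r ∩ {x : E n | x 0 < e}) :=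
        hi.mono_set inter_subset_left
      refine setIntegral_mono_on ?_ hi' hm fun x hx => ?_
      · refine Integrable.mono' hi' ?_ ?_
        · exact (((comps_smooth hcg b).continuousOn.mono inter_subset_left).pow 2).aestronglyMeasurable hm
        · refine (ae_restrict_mem hm).mono fun x hx => ?_
          rw [Real.norm_eq_abs, abs_of_nonneg (sq_nonneg _), AIReal_comps]
          exact cp_sq_le b (v x)
      · rw [AIReal_comps]
        exact cp_sq_le b (v x)
  have hw := hG n (Fin N × Bool) S' z r r' hz hr' hrr hS' (comps v) hsol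
  choose w hw1 hw2 hw3 using hw
  refine ⟨fun x => g x + ∑ q, w q x • AIReal_e q, ?_, ?_, ?_⟩
  · exact (hg.mono (Bx_mono z hrr.le)).add
      (ContDiffOn.sum fun q _ => (hw1 q).smul contDiffOn_const)
  · intro x hx
    have h3 : ∑ q, w q x • AIReal_e q = ∑ q, AIReal_cp q (v x) • (AIReal_e q : Fib N) := by
      refine Finset.sum_congr rfl fun q _ => ?_
      rw [hw2 q x hx, AIReal_comps]
    show g x + _ = c x
    rw [h3, ← AIReal_expand (v x), hv]
    simp
  · intro x hx hx0
    show g x + _ = g x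
    rw [Finset.sum_eq_zero fun q _ => by rw [hw3 q x hx hx0, zero_smul], add_zero]

end Vale.Agent.P088.DM
end
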