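import Vale.Agent.P088.R2.H238.DM.Bdry
import Vale.Agent.P088.Bdl.B12

/-!
# P088, SOLV: local limits in every chart, assembly
-/

set_option linter.all false

open Manifold MeasureTheory Set Filter Topology
open scoped ContDiff

noncomputable section

namespace Vale.Agent.P088.DM

open Vale.Agent.P088.EYM

universe u

variable {n N : ℕ} [NeZero n]

theorem closure_Bx (z : E n) (r : ℝ) : closure (Bx z r) ⊆ {x | (∀ i, |x i - z i| ≤ r) ∧ 0 ≤ x 0} := by
  apply closure_minimal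
  · exact fun x hx => ⟨fun i => (hx.1 i).le, hx.2⟩
  · rw [show {x : E n | (∀ i, |x i - z i| ≤ r) ∧ 0 ≤ x 0} =
        (⋂ i, {x : E n | |x i - z i| ≤ r}) ∩ {x | 0 ≤ x 0} by ext x; simp]
    refine (isClosed_iInter fun i => isClosed_le ?_ continuous_const).inter
      (isClosed_le continuous_const (continuous_coord 0))
    exact ((continuous_coord i).sub continuous_const).abs

theorem dist_le_of_box {x z : E n} {r : ℝ} (hr : 0 ≤ r) (h : ∀ i, |x i - z i| ≤ r) :
    dist x z ≤ n * r := by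
  have hn : (1 : ℝ) ≤ n := by exact_mod_cast Nat.one_le_iff_ne_zero.2 (NeZero.ne n)
  rw [EuclideanSpace.dist_eq]
  apply Real.sqrt_le_iff.2
  refine ⟨by positivity, ?_⟩
  calc ∑ i, dist (x i) (z i) ^ 2 ≤ ∑ i : Fin n, r ^ 2 := by
        refine Finset.sum_le_sum fun i _ => pow_le_pow_left₀ dist_nonneg ?_ 2
        rw [Real.dist_eq]; exact h i
    _ = n * r ^ 2 := by simp
    _ ≤ (n * r) ^ 2 := by nlinarith [sq_nonneg r]

theorem exists_box {D : Set (E n)} (hD : RelOpen D) {z : E n} (hz : z ∈ D) :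
    ∃ r > 0, closure (Bx z r) ⊆ D := by
  obtain ⟨O, hO, rfl⟩ := hD
  obtain ⟨ε, hε, hb⟩ := Metric.isOpen_iff.1 hO z hz.1
  have hn : (1 : ℝ) ≤ n := by exact_mod_cast Nat.one_le_iff_ne_zero.2 (NeZero.ne n)
  refine ⟨ε / (2 * n), by positivity, fun x hx => ?_⟩
  have h := closure_Bx z _ hx
  refine ⟨hb ?_, h.2⟩
  rw [Metric.mem_ball]
  refine (dist_le_of_box (by positivity) h.1).trans_lt ?_
  have : (n : ℝ) * (ε / (2 * n)) = ε / 2 := by field_simp
  rw [this]
  linarith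

theorem isCompact_closure_Bx (z : E n) (r : ℝ) : IsCompact (closure (Bx z r)) := by
  rcases le_or_gt 0 r with hr | hr
  · refine Metric.isCompact_of_isClosed_isBounded isClosed_closure
      ((Metric.isBounded_closedBall (x := z) (r := n * r)).subset fun x hx => ?_)
    exact dist_le_of_box hr (closure_Bx z r hx).1
  · have : Bx z r = ∅ := by
      ext x
      simp only [mem_empty_iff_false, iff_false]
      intro hx
      exact absurd (abs_nonneg (x 0 - z 0)) (not_le.2 ((hx.1 0).trans hr))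
    rw [this, closure_empty]
    exact isCompact_empty

/-- the integrand of `H1` -/
def hd (c : E n → Fib N) (x : E n) : ℝ := ‖c x‖ ^ 2 + ∑ j, ‖pd j c x‖ ^ 2

theorem hd_nonneg (c : E n → Fib N) (x : E n) : 0 ≤ hd c x :=
  add_nonneg (sq_nonneg _) (Finset.sum_nonneg fun _ _ => sq_nonneg _)

theorem hd_cont {D : Set (E n)} (hD : RelOpen D) {c : E n → Fib N} (hc : ContDiffOn ℝ ∞ c D) :
    ContinuousOn (hd c) D :=
  (hc.continuousOn.norm.pow 2).add
    (continuousOn_finsetSum _ fun j _ => ((hD.pd_smooth hc j).continuousOn.norm.pow 2))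

theorem nsq_sub_le {F : Type*} [NormedAddCommGroup F] (a b : F) :
    ‖a - b‖ ^ 2 ≤ 2 * ‖a‖ ^ 2 + 2 * ‖b‖ ^ 2 := by
  have h := norm_sub_le a b
  nlinarith [norm_nonneg (a - b), norm_nonneg a, norm_nonneg b, sq_nonneg (‖a‖ - ‖b‖)]

theorem hd_sub_le {D : Set (E n)} (hD : RelOpen D) {c d : E n → Fib N}
    (hc : ContDiffOn ℝ ∞ c D) (hd' : ContDiffOn ℝ ∞ d D) {x : E n} (hx : x ∈ D) :
    hd (fun y => c y - d y) x ≤ 2 * hd c x + 2 * hd d x := by
  unfold hd
  have h1 := nsq_sub_le (c x) (d x)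
  have h2 : ∑ j, ‖pd j (fun y => c y - d y) x‖ ^ 2 ≤
      ∑ j, (2 * ‖pd j c x‖ ^ 2 + 2 * ‖pd j d x‖ ^ 2) := by
    refine Finset.sum_le_sum fun j _ => ?_
    rw [hD.pd_sub hc hd' hx j]
    exact nsq_sub_le _ _
  rw [Finset.sum_add_distrib, ← Finset.mul_sum, ← Finset.mul_sum] at h2
  linarith

theorem hd_sub_int {D : Set (E n)} (hD : RelOpen D) (hDm : MeasurableSet D) {c d : E n → Fib N}
    (hc : ContDiffOn ℝ ∞ c D) (hd' : ContDiffOn ℝ ∞ d D) (h1 : IntegrableOn (hd c) D)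
    (h2 : IntegrableOn (hd d) D) : IntegrableOn (hd (fun y => c y - d y)) D := by
  refine Integrable.mono' ((h1.const_mul 2).add (h2.const_mul 2)) ?_ ?_
  · exact (hd_cont hD (hc.sub hd')).aestronglyMeasurable hDm
  · refine (ae_restrict_mem hDm).mono fun x hx => ?_
    rw [Real.norm_eq_abs, abs_of_nonneg (hd_nonneg _ _)]
    exact hd_sub_le hD hc hd' hx

theorem nsq_int {D : Set (E n)} (hDm : MeasurableSet D) {c : E n → Fib N}
    (hc : ContinuousOn c D) (h1 : IntegrableOn (hd c) D) :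
    IntegrableOn (fun x => ‖c x‖ ^ 2) D := by
  refine Integrable.mono' h1 ((hc.norm.pow 2).aestronglyMeasurable hDm) ?_
  refine Eventually.of_forall fun x => ?_
  rw [Real.norm_eq_abs, abs_of_nonneg (sq_nonneg _)]
  have : 0 ≤ ∑ j, ‖pd j c x‖ ^ 2 := Finset.sum_nonneg fun _ _ => sq_nonneg _
  unfold hd
  linarith

theorem nsq_le_H1 {D : Set (E n)} (hDm : MeasurableSet D) {c : E n → Fib N}
    (hc : ContinuousOn c D) (h1 : IntegrableOn (hd c) D) :
    ∫ x in D, ‖c x‖ ^ 2 ≤ H1 D c := by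
  unfold H1
  refine integral_mono (nsq_int hDm hc h1) h1 fun x => ?_
  have : 0 ≤ ∑ j, ‖pd j c x‖ ^ 2 := Finset.sum_nonneg fun _ _ => sq_nonneg _
  show ‖c x‖ ^ 2 ≤ ‖c x‖ ^ 2 + ∑ j, ‖pd j c x‖ ^ 2
  linarith

theorem lop_congr {D : Set (E n)} (hD : RelOpen D) (L : LD n N) {c c' : E n → Fib N}
    (h : EqOn c c' D) {x : E n} (hx : x ∈ D) : Lop L c x = Lop L c' x :=
  CNear_Lop_congr hD L h hx

/-- (LOC) -/
theorem rowLOC (hMIN : RowMIN.{u}) (hCH : RowCH.{u}) (hW : RowWEAK) (hTR : RowTR)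
    (hB : RowBDRY) : RowLOC.{u} := by
  intro n N _ M _ _ _ _ _ _ _ _ P hb f hf
  obtain ⟨u, hu, hubd, hE, hL2, hw⟩ := hMIN n N M P hb f hf
  obtain ⟨hRel, hOk, hbdc, hsm⟩ := cLoc n N M
  have hch := hCH n N M P u hu hE hL2 hw
  refine ⟨u, hu, fun p z hz => ?_⟩
  have hT : RelOpen (tg n p) := hRel p
  have hLp : (P.loc p).Ok (tg n p) := hOk P p
  obtain ⟨r0, hr0, hcl⟩ := exists_box hT hz
  have huc : ∀ k, ContDiffOn ℝ ∞ (lu (𝓡∂ n) p (u k)) (tg n p) := fun k => hsm _ (hu k) p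
  have hfc : ContDiffOn ℝ ∞ (lu (𝓡∂ n) p f) (tg n p) := hsm _ hf p
  have hz0 : 0 ≤ z 0 := hT.subset hz
  -- the limit on a box
  have hlim : ∀ r, closure (Bx z r) ⊆ tg n p → ∃ c : E n → Fib N,
      ContDiffOn ℝ ∞ c (Bo z r) ∧ (∀ x ∈ Bo z r, Lop (P.loc p) c x = 0) ∧
      IntegrableOn (hd c) (Bo z r) ∧ (∀ k, IntegrableOn (hd (lu (𝓡∂ n) p (u k))) (Bo z r)) ∧
      Tendsto (fun k => H1 (Bo z r) (fun x => lu (𝓡∂ n) p (u k) x - c x)) atTop (𝓝 0) := by
    intro r hr
    obtain ⟨h1, h2, h3⟩ := hch p z r hr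
    have hs : Bx z r ⊆ tg n p := subset_closure.trans hr
    obtain ⟨c, a, b, d, e⟩ := hW n N (P.loc p) z r (CHarm_ok_mono hLp hs) (fun x _ => rfl)
      (fun k => lu (𝓡∂ n) p (u k)) (fun k => (huc k).mono hs) h1 h2 h3
    exact ⟨c, a, b, d, h1, e⟩
  rcases hz0.lt_or_eq with hpos | h0
  · -- interior point
    set r : ℝ := min r0 (z 0) with hr
    have hr' : 0 < r := lt_min hr0 hpos
    have hcl' : closure (Bx z r) ⊆ tg n p :=
      (closure_mono (Bx_mono z (min_le_left _ _))).trans hcl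
    have hxx : ∀ x ∈ Bx z r, 0 < x 0 := by
      intro x hx
      have h1 := (abs_lt.1 (hx.1 0)).1
      have h2 : r ≤ z 0 := min_le_right _ _
      linarith
    have hBB : Bx z r = Bo z r := by
      apply Subset.antisymm
      · exact fun x hx => ⟨hx.1, hxx x hx⟩
      · exact Bo_sub_Bx z r
    obtain ⟨c, hc1, hc2, hc3, hc4, hc5⟩ := hlim r hcl'
    have hBo := Bo_rel (n := n) z r
    have hBm := (Bo_open (n := n) z r).measurableSet
    have hos : Bo z r ⊆ tg n p := (Bo_sub_Bx z r).trans (subset_closure.trans hcl')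
    have hint : ∀ k, IntegrableOn (hd (fun y => lu (𝓡∂ n) p (u k) y - c y)) (Bo z r) := fun k =>
      hd_sub_int hBo hBm ((huc k).mono hos) hc1 (hc4 k) hc3
    refine ⟨r, c, hr', hcl', ?_, hc2, ?_, ?_, ?_⟩
    · rw [hBB]; exact hc1
    · intro x hx hx0
      exact absurd hx0 (hxx x hx).ne'
    · intro k
      exact nsq_int hBm (((huc k).mono hos).sub hc1).continuousOn (hint k)
    · refine squeeze_zero (fun k => integral_nonneg fun x => sq_nonneg _) (fun k => ?_) hc5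
      exact nsq_le_H1 hBm (((huc k).mono hos).sub hc1).continuousOn (hint k)
  · -- boundary point
    have hz1 : z 0 = 0 := h0.symm
    obtain ⟨c, hc1, hc2, hc3, hc4, hc5⟩ := hlim r0 hcl
    have hBo := Bo_rel (n := n) z r0
    have hBm := (Bo_open (n := n) z r0).measurableSet
    have hxs : Bx z r0 ⊆ tg n p := subset_closure.trans hcl
    have hos : Bo z r0 ⊆ tg n p := (Bo_sub_Bx z r0).trans hxs
    have hfi : IntegrableOn (hd (lu (𝓡∂ n) p f)) (Bo z r0) := by
      have h1 : ContinuousOn (hd (lu (𝓡∂ n) p f)) (closure (Bx z r0)) :=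
        (hd_cont hT hfc).mono hcl
      exact (h1.integrableOn_compact (isCompact_closure_Bx z r0)).mono_set
        ((Bo_sub_Bx z r0).trans subset_closure)
    have hcf : ContDiffOn ℝ ∞ (fun x => c x - lu (𝓡∂ n) p f x) (Bo z r0) :=
      hc1.sub (hfc.mono hos)
    have hcfi : IntegrableOn (hd (fun x => c x - lu (𝓡∂ n) p f x)) (Bo z r0) :=
      hd_sub_int hBo hBm hc1 (hfc.mono hos) hc3 hfi
    have htr : ∀ e > 0, ∫ x in Bo z r0 ∩ {x | x 0 < e}, ‖c x - lu (𝓡∂ n) p f x‖ ^ 2 ≤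
        H1 (Bo z r0) (fun x => c x - lu (𝓡∂ n) p f x) * e ^ 2 := by
      refine hTR n N z r0 hz1 (fun k x => lu (𝓡∂ n) p (u k) x - lu (𝓡∂ n) p f x)
        (fun x => c x - lu (𝓡∂ n) p f x) (fun k => ((huc k).sub hfc).mono hxs) ?_ ?_ hcf hcfi ?_
      · intro k x hx hx0
        have hxt := hxs hx
        have h1 : (xc n p).symm x ∈ (𝓡∂ n).boundary M := by
          refine (hbdc p ((xc n p).symm x) ((xc n p).map_target hxt)).2 ?_
          rw [(xc n p).right_inv hxt]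
          exact hx0
        show u k ((xc n p).symm x) - f ((xc n p).symm x) = 0
        rw [hubd k _ h1, sub_self]
      · intro k
        exact hd_sub_int hBo hBm ((huc k).mono hos) (hfc.mono hos) (hc4 k) hfi
      · refine hc5.congr fun k => ?_
        congr 1
        funext x
        abel
    obtain ⟨v, hv1, hv2, hv3⟩ := hB n N (P.loc p) z r0 (r0 / 2) hz1 (by linarith) (by linarith)
      (CHarm_ok_mono hLp hxs) c (lu (𝓡∂ n) p f) hc1 hc2 (hfc.mono hxs) hcfi
      ⟨_, htr⟩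
    have hle : r0 / 2 ≤ r0 := by linarith
    have hsub : Bo z (r0 / 2) ⊆ Bo z r0 := Bo_mono z hle
    have hBm' := (Bo_open (n := n) z (r0 / 2)).measurableSet
    have hint : ∀ k, IntegrableOn (hd (fun y => lu (𝓡∂ n) p (u k) y - c y)) (Bo z r0) := fun k =>
      hd_sub_int hBo hBm ((huc k).mono hos) hc1 (hc4 k) hc3
    have hnint : ∀ k, IntegrableOn (fun y => ‖lu (𝓡∂ n) p (u k) y - c y‖ ^ 2) (Bo z r0) :=
      fun k => nsq_int hBm (((huc k).mono hos).sub hc1).continuousOn (hint k)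
    refine ⟨r0 / 2, v, by linarith, (closure_mono (Bx_mono z hle)).trans hcl, hv1, ?_, hv3, ?_, ?_⟩
    · intro x hx
      rw [lop_congr (Bo_rel z (r0 / 2)) (P.loc p) hv2 hx]
      exact hc2 x (hsub hx)
    · intro k
      refine (((hnint k).mono_set hsub).congr_fun (fun x hx => ?_) hBm')
      show ‖lu (𝓡∂ n) p (u k) x - c x‖ ^ 2 = _
      rw [hv2 x hx]
    · refine squeeze_zero (fun k => integral_nonneg fun x => sq_nonneg _) (fun k => ?_) hc5
      calc ∫ x in Bo z (r0 / 2), ‖lu (𝓡∂ n) p (u k) x - v x‖ ^ 2 =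
            ∫ x in Bo z (r0 / 2), ‖lu (𝓡∂ n) p (u k) x - c x‖ ^ 2 :=
          setIntegral_congr_fun hBm' fun x hx => by simp only [hv2 x hx]
        _ ≤ ∫ x in Bo z r0, ‖lu (𝓡∂ n) p (u k) x - c x‖ ^ 2 :=
          setIntegral_mono_set (hnint k) (Eventually.of_forall fun x => sq_nonneg _)
            (Eventually.of_forall hsub)
        _ ≤ _ := nsq_le_H1 hBm (((huc k).mono hos).sub hc1).continuousOn (hint k)

/-- (SOLV) from the rows. -/
theorem solv (hMIN : RowMIN.{u}) (hCH : RowCH.{u}) (hW : RowWEAK) (hTR : RowTR)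
    (hB : RowBDRY) (hG : RowGLU.{u}) (hA : RowASM.{u}) : SOLV.{u} :=
  solv_of (rowLOC hMIN hCH hW hTR hB) hG hA

end Vale.Agent.P088.DM
end
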