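import Vale.Agent.P088.R2.H238.DM.Bdry

/-!
# P088, SOLV: `Lop L c` as a real system
-/

set_option linter.all false

open Manifold MeasureTheory Set Filter Topology
open scoped ContDiff

noncomputable section

namespace Vale.Agent.P088.DM

open Vale.Agent.P088.EYM

variable {n N : ℕ} [NeZero n]

theorem real_eq {O : Set (E n)} (hO : RelOpen O) {L : LD n N} (hL : L.Ok O) {c : E n → Fib N}
    (hc : ContDiffOn ℝ ∞ c O) {x : E n} (hx : x ∈ O) :
    ∑ j, ∑ k, gg L.g j k x • pd j (pd k c) x =
      ∑ k, AIReal_M L k x (pd k c x) + AIReal_Z L x (c x) + Lop L c x := by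
  have hgg := hO.gg_smooth hL.g_smooth hL.g_pos
  have hnab := Jacobi_nab_smooth hO hL hc
  have h1 : ∀ j, pd j (flux L j c) x + L.B j x (flux L j c x) =
      ∑ k, (gg L.g j k x • (pd j (nab L k c) x + L.B j x (nab L k c x)) +
        pd j (gg L.g j k) x • nab L k c x) := by
    intro j
    have h2 : pd j (flux L j c) x = ∑ k, (gg L.g j k x • pd j (nab L k c) x +
        pd j (gg L.g j k) x • nab L k c x) := by
      have h3 : pd j (flux L j c) x = pd j (fun y => ∑ k, gg L.g j k y • nab L k c y) x := rfl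
      rw [h3, hO.pd_sum Finset.univ (f := fun k y => gg L.g j k y • nab L k c y)
        (fun k _ => (hgg j k).smul (hnab k)) hx j]
      exact Finset.sum_congr rfl fun k _ => hO.pd_smul (hgg j k) (hnab k) hx j
    have h4 : L.B j x (flux L j c x) = ∑ k, gg L.g j k x • L.B j x (nab L k c x) := by
      unfold flux
      rw [map_sum]
      exact Finset.sum_congr rfl fun k _ => ContinuousLinearMap.map_smul_of_tower _ _ _
    rw [h2, h4, ← Finset.sum_add_distrib]
    refine Finset.sum_congr rfl fun k _ => ?_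
    rw [smul_add]
    abel
  have h5 : ∀ j k, pd j (nab L k c) x =
      pd j (pd k c) x + (L.B k x (pd j c x) + pd j (L.B k) x (c x)) := by
    intro j k
    have h6 : pd j (nab L k c) x = pd j (fun y => pd k c y + L.B k y (c y)) x := rfl
    rw [h6, hO.pd_add (hO.pd_smooth hc k) (smooth_eval (hL.B_smooth k) hc) hx j,
      hO.pd_eval (hL.B_smooth k) hc (by simp) (by simp) hx j]
  have h0 : Lop L c x = ∑ j, (pd j (flux L j c) x + L.B j x (flux L j c x)) := rfl
  simp only [h1, h5] at h0
  have hM : ∑ k, AIReal_M L k x (pd k c x) =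
      -(∑ j, ∑ k, (pd j (gg L.g j k) x • pd k c x + gg L.g j k x • L.B k x (pd j c x) +
        gg L.g j k x • L.B j x (pd k c x))) := by
    have e1 : ∀ k, AIReal_M L k x (pd k c x) = -(∑ j, pd j (gg L.g j k) x • pd k c x +
        ∑ j, gg L.g k j x • L.B j x (pd k c x) + ∑ j, gg L.g j k x • L.B j x (pd k c x)) := by
      intro k
      unfold AIReal_M
      rw [← Finset.sum_add_distrib, ← Finset.sum_add_distrib]
      simp only [neg_apply, sum_apply, add_apply, smul_apply, one_apply_eq_self]
    simp only [e1, Finset.sum_neg_distrib, Finset.sum_add_distrib]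
    congr 2
    · congr 1
      rw [Finset.sum_comm]
    · rw [Finset.sum_comm]
  have hZ : AIReal_Z L x (c x) =
      -(∑ j, ∑ k, (pd j (gg L.g j k) x • L.B k x (c x) + gg L.g j k x • pd j (L.B k) x (c x) +
        gg L.g j k x • L.B j x (L.B k x (c x)))) := by
    unfold AIReal_Z
    simp only [neg_apply, sum_apply, add_apply, smul_apply]
    rfl
  rw [hM, hZ, h0, eq_comm, ← sub_eq_zero]
  simp only [← Finset.sum_neg_distrib, ← Finset.sum_add_distrib, ← Finset.sum_sub_distrib]
  refine Finset.sum_eq_zero fun j _ => Finset.sum_eq_zero fun k _ => ?_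
  unfold nab
  simp only [map_add, smul_add]
  abel

/-- (REAL) -/
theorem rowREAL : RowREAL := by
  intro n N _ L D hR hL
  have hgg := hR.gg_smooth hL.g_smooth hL.g_pos
  refine ⟨⟨gg L.g, fun j p q x => AIReal_m (AIReal_M L j x) p q,
    fun p q x => AIReal_m (AIReal_Z L x) p q⟩, ⟨hgg, fun x hx => ?_, fun j p q =>
      AIReal_m_smooth (AIReal_M_smooth hR hL j) p q, fun p q =>
      AIReal_m_smooth (AIReal_Z_smooth hR hL) p q⟩, fun c hc x hx hx0 p => ?_⟩
  · have h1 : (Matrix.of fun j k => gg L.g j k x) = Real.sqrt (L.g x).det • (L.g x)⁻¹ := by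
      ext j k
      rfl
    rw [h1]
    exact (hL.g_pos x hx).inv.smul (Real.sqrt_pos.2 (hL.g_pos x hx).det_pos)
  · have hO : RelOpen (D ∩ {y : E n | 0 < y 0}) :=
      CHarm_relOpen_of_open (CHarm_pos_open hR) (inter_subset_left.trans hR.subset)
    have hLO : L.Ok (D ∩ {y : E n | 0 < y 0}) := CHarm_ok_mono hL inter_subset_left
    have hxO : x ∈ D ∩ {y : E n | 0 < y 0} := ⟨hx, hx0⟩
    have e := congrArg (AIReal_cp p) (real_eq hO hLO hc hxO)
    have hpd : ∀ q j y, y ∈ D ∩ {y : E n | 0 < y 0} →
        pd j (comps c q) y = AIReal_cp q (pd j c y) := by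
      intro q j y hy
      rw [AIReal_comps]
      exact hO.pd_clm (AIReal_cp q) hc hy j
    have hpd2 : ∀ j k, pd j (pd k (comps c p)) x = AIReal_cp p (pd j (pd k c) x) := by
      intro j k
      rw [hO.pd_congr (fun y hy => hpd p k y hy) hxO j]
      exact hO.pd_clm (AIReal_cp p) (hO.pd_smooth hc k) hxO j
    simp only [map_sum, map_add, map_smul, smul_eq_mul, AIReal_m_apply] at e
    simp only [hpd2, hpd _ _ x hxO]
    rw [e]
    simp only [AIReal_comps]

end Vale.Agent.P088.DM
end
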