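import Vale.Agent.P088.Bdl.B3
import Vale.Agent.P088.Bdl.B4

/-!
# P088, SOLV: smooth solutions of the Dirichlet problem exist.  The rows.

Rows are literal statements; the owner of a row proves `theorem rowX : RowX` in an own file.
-/

open Manifold MeasureTheory Set Filter Topology
open scoped ContDiff

noncomputable section

namespace Vale.Agent.P088.DM

open Vale.Agent.P088.EYM

universe u

variable {n N : ℕ} [NeZero n]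

/-- The box of half side `r` about `z` in the closed half space. -/
def Bx (z : E n) (r : ℝ) : Set (E n) := {x | (∀ i, |x i - z i| < r) ∧ 0 ≤ x 0}

/-- The box of half side `r` about `z` in the open half space. -/
def Bo (z : E n) (r : ℝ) : Set (E n) := {x | (∀ i, |x i - z i| < r) ∧ 0 < x 0}

/-! ### Real systems -/

/-- The system `∑ a_jk ∂_j ∂_k u_b = ∑ M_j b c ∂_j u_c + ∑ Z b c u_c + G_b`. -/
structure BSys (n : ℕ) (ι : Type) extends RSys n ι where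
  G : ι → E n → ℝ

/-- Smooth coefficients, positive definite principal part. -/
structure BSys.Ok {ι : Type} (S : BSys n ι) (O : Set (E n)) : Prop where
  sys : S.toRSys.Ok O
  G_smooth : ∀ b, ContDiffOn ℝ ∞ (S.G b) O

/-- `u` is a solution in the half box, in `H¹`, with trace zero on `x 0 = 0`. -/
structure BSol {ι : Type} [Fintype ι] (S : BSys n ι) (z : E n) (r : ℝ) (u : ι → E n → ℝ) :
    Prop where
  smooth : ∀ b, ContDiffOn ℝ ∞ (u b) (Bo z r)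
  eqn : ∀ x ∈ Bo z r, ∀ b, ∑ j, ∑ k, S.a j k x * pd j (pd k (u b)) x =
    ∑ j, ∑ c, S.M j b c x * pd j (u c) x + ∑ c, S.Z b c x * u c x + S.G b x
  l2 : ∀ b, IntegrableOn (fun x => u b x ^ 2) (Bo z r)
  l2d : ∀ b j, IntegrableOn (fun x => pd j (u b) x ^ 2) (Bo z r)
  tr : ∃ C : ℝ, ∀ e > 0, ∀ b, ∫ x in Bo z r ∩ {x | x 0 < e}, u b x ^ 2 ≤ C * e ^ 2

/-- `(u, ∂_i u)`, `i ≠ 0`. -/
def tprol {ι : Type} (u : ι → E n → ℝ) (p : Option {i : Fin n // i ≠ 0} × ι) : E n → ℝ :=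
  match p.1 with
  | none => u p.2
  | some i => pd i.1 (u p.2)

/-- (T, row 6) the tangential derivatives. Owners helper380, helper850. -/
def RowT : Prop := ∀ (n : ℕ) [NeZero n] (ι : Type) [Fintype ι] (S : BSys n ι) (z : E n)
  (r r' : ℝ), z 0 = 0 → 0 < r' → r' < r → S.Ok (Bx z r) →
  ∃ S' : BSys n (Option {i : Fin n // i ≠ 0} × ι), S'.Ok (Bx z r') ∧
    ∀ u : ι → E n → ℝ, BSol S z r u → BSol S' z r' (tprol u)

/-- (L, row 7) all derivatives are square integrable; to be proved from `RowT`.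
Owner helper856. -/
def RowL : Prop := ∀ (n : ℕ) [NeZero n] (ι : Type) [Fintype ι] (S : BSys n ι) (z : E n)
  (r r' : ℝ), z 0 = 0 → 0 < r' → r' < r → S.Ok (Bx z r) → ∀ u : ι → E n → ℝ, BSol S z r u →
  ∀ (b : ι) (l : List (Fin n)), IntegrableOn (fun x => pdl l (u b) x ^ 2) (Bo z r')

/-- (X, row 8) the smooth extension to the boundary. Owners helper459, helper856. -/
def RowX : Prop := ∀ (n : ℕ) [NeZero n] (z : E n) (r r' : ℝ), z 0 = 0 → 0 < r' → r' < r →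
  ∀ v : E n → ℝ, ContDiffOn ℝ ∞ v (Bo z r) →
  (∀ l : List (Fin n), IntegrableOn (fun x => pdl l v x ^ 2) (Bo z r)) →
  (∃ C : ℝ, ∀ e > 0, ∫ x in Bo z r ∩ {x | x 0 < e}, v x ^ 2 ≤ C * e ^ 2) →
  ∃ w : E n → ℝ, ContDiffOn ℝ ∞ w (Bx z r') ∧ (∀ x ∈ Bo z r', w x = v x) ∧
    ∀ x ∈ Bx z r', x 0 = 0 → w x = 0

/-- (REAL) `Lop L c` as a real system. Owner helper747. -/
def RowREAL : Prop := ∀ (n N : ℕ) [NeZero n] (L : LD n N) (D : Set (E n)), RelOpen D →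
  L.Ok D → ∃ S : RSys n (Fin N × Bool), S.Ok D ∧ ∀ c : E n → Fib N,
    ContDiffOn ℝ ∞ c (D ∩ {x | 0 < x 0}) → ∀ x ∈ D, 0 < x 0 → ∀ b,
    ∑ j, ∑ k, S.a j k x * pd j (pd k (comps c b)) x =
      ∑ j, ∑ d, S.M j b d x * pd j (comps c d) x + ∑ d, S.Z b d x * comps c d x +
        comps (Lop L c) b x

/-- (BDRY) smoothness up to the boundary; from `RowT, RowL, RowX, RowREAL`. Owner helper238. -/
def RowBDRY : Prop := ∀ (n N : ℕ) [NeZero n] (L : LD n N) (z : E n) (r r' : ℝ), z 0 = 0 →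
  0 < r' → r' < r → L.Ok (Bx z r) → ∀ c g : E n → Fib N, ContDiffOn ℝ ∞ c (Bo z r) →
  (∀ x ∈ Bo z r, Lop L c x = 0) → ContDiffOn ℝ ∞ g (Bx z r) →
  IntegrableOn (fun x => ‖c x - g x‖ ^ 2 + ∑ j, ‖pd j (fun y => c y - g y) x‖ ^ 2) (Bo z r) →
  (∃ C : ℝ, ∀ e > 0, ∫ x in Bo z r ∩ {x | x 0 < e}, ‖c x - g x‖ ^ 2 ≤ C * e ^ 2) →
  ∃ v : E n → Fib N, ContDiffOn ℝ ∞ v (Bx z r') ∧ (∀ x ∈ Bo z r', v x = c x) ∧
    ∀ x ∈ Bx z r', x 0 = 0 → v x = g x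

/-! ### Limits of sequences -/

/-- (WEAK, rows 4 and 5) the limit of a sequence is smooth in the interior and a solution.
Owner helper349. -/
def RowWEAK : Prop := ∀ (n N : ℕ) [NeZero n] (L : LD n N) (z : E n) (r : ℝ), L.Ok (Bx z r) →
  (∀ x ∈ Bx z r, L.h x = 1) → ∀ w : ℕ → E n → Fib N, (∀ k, ContDiffOn ℝ ∞ (w k) (Bx z r)) →
  (∀ k, IntegrableOn (fun x => ‖w k x‖ ^ 2 + ∑ j, ‖pd j (w k) x‖ ^ 2) (Bo z r)) →
  (∀ ε > 0, ∃ k₀, ∀ k ≥ k₀, ∀ l ≥ k₀, H1 (Bo z r) (fun x => w k x - w l x) ≤ ε) →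
  (∀ ψ : E n → Fib N, Tst0 (Bo z r) ψ →
    Tendsto (fun k => En L (Bo z r) (w k) ψ) atTop (𝓝 0)) →
  ∃ c : E n → Fib N, ContDiffOn ℝ ∞ c (Bo z r) ∧ (∀ x ∈ Bo z r, Lop L c x = 0) ∧
    IntegrableOn (fun x => ‖c x‖ ^ 2 + ∑ j, ‖pd j c x‖ ^ 2) (Bo z r) ∧
    Tendsto (fun k => H1 (Bo z r) (fun x => w k x - c x)) atTop (𝓝 0)

/-- (TR) the trace zero condition passes to the limit. Owner helper673. -/
def RowTR : Prop := ∀ (n N : ℕ) [NeZero n] (z : E n) (r : ℝ), z 0 = 0 →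
  ∀ (w : ℕ → E n → Fib N) (c : E n → Fib N), (∀ k, ContDiffOn ℝ ∞ (w k) (Bx z r)) →
  (∀ k, ∀ x ∈ Bx z r, x 0 = 0 → w k x = 0) →
  (∀ k, IntegrableOn (fun x => ‖w k x‖ ^ 2 + ∑ j, ‖pd j (w k) x‖ ^ 2) (Bo z r)) →
  ContDiffOn ℝ ∞ c (Bo z r) →
  IntegrableOn (fun x => ‖c x‖ ^ 2 + ∑ j, ‖pd j c x‖ ^ 2) (Bo z r) →
  Tendsto (fun k => H1 (Bo z r) (fun x => w k x - c x)) atTop (𝓝 0) →
  ∀ e > 0, ∫ x in Bo z r ∩ {x | x 0 < e}, ‖c x‖ ^ 2 ≤ H1 (Bo z r) c * e ^ 2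

/-! ### On the manifold -/

/-- (MIN, row 1) the minimising sequence, from `cHilb`, `cPoinc`, `cForm`. Owner helper673 or
helper772. -/
def RowMIN : Prop := ∀ (n N : ℕ) [NeZero n] (M : Type u) [TopologicalSpace M]
  [ChartedSpace (EuclideanHalfSpace n) M] [IsManifold (𝓡∂ n) ∞ M] [T2Space M] [CompactSpace M]
  [ConnectedSpace M] [MeasurableSpace M] [BorelSpace M] (P : One n N M),
  ((𝓡∂ n).boundary M).Nonempty → ∀ f : M → Fib N, SmS n f →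
  ∃ u : ℕ → M → Fib N, (∀ k, SmS n (u k)) ∧ (∀ k, ∀ x ∈ (𝓡∂ n).boundary M, u k x = f x) ∧
    (∀ ε > 0, ∃ k₀, ∀ k ≥ k₀, ∀ l ≥ k₀, (P.E (u k - u l) (u k - u l)).re ≤ ε) ∧
    (∀ ε > 0, ∃ k₀, ∀ k ≥ k₀, ∀ l ≥ k₀, ∫ x, ‖u k x - u l x‖ ^ 2 ∂P.μ ≤ ε) ∧
    ∀ φ : M → Fib N, SmS n φ → (∀ x ∈ (𝓡∂ n).boundary M, φ x = 0) →
      Tendsto (fun k => P.E (u k) φ) atTop (𝓝 0)

/-- (CH) the sequence in a chart. Owner helper558 or helper747. -/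
def RowCH : Prop := ∀ (n N : ℕ) [NeZero n] (M : Type u) [TopologicalSpace M]
  [ChartedSpace (EuclideanHalfSpace n) M] [IsManifold (𝓡∂ n) ∞ M] [T2Space M] [CompactSpace M]
  [MeasurableSpace M] [BorelSpace M] (P : One n N M) (u : ℕ → M → Fib N), (∀ k, SmS n (u k)) →
  (∀ ε > 0, ∃ k₀, ∀ k ≥ k₀, ∀ l ≥ k₀, (P.E (u k - u l) (u k - u l)).re ≤ ε) →
  (∀ ε > 0, ∃ k₀, ∀ k ≥ k₀, ∀ l ≥ k₀, ∫ x, ‖u k x - u l x‖ ^ 2 ∂P.μ ≤ ε) →
  (∀ φ : M → Fib N, SmS n φ → (∀ x ∈ (𝓡∂ n).boundary M, φ x = 0) →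
    Tendsto (fun k => P.E (u k) φ) atTop (𝓝 0)) →
  ∀ (p : M) (z : E n) (r : ℝ), closure (Bx z r) ⊆ tg n p →
    (∀ k, IntegrableOn (fun y => ‖lu (𝓡∂ n) p (u k) y‖ ^ 2 +
      ∑ j, ‖pd j (lu (𝓡∂ n) p (u k)) y‖ ^ 2) (Bo z r)) ∧
    (∀ ε > 0, ∃ k₀, ∀ k ≥ k₀, ∀ l ≥ k₀,
      H1 (Bo z r) (fun y => lu (𝓡∂ n) p (u k) y - lu (𝓡∂ n) p (u l) y) ≤ ε) ∧
    ∀ ψ : E n → Fib N, Tst0 (Bo z r) ψ →
      Tendsto (fun k => En (P.loc p) (Bo z r) (lu (𝓡∂ n) p (u k)) ψ) atTop (𝓝 0)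

/-- `v` is the limit of the sequence `u` in the box about `z` of the chart at `p`; it is smooth
up to the boundary, a solution, and it has the boundary values of `f`. -/
structure LocLim {M : Type u} [TopologicalSpace M] [ChartedSpace (EuclideanHalfSpace n) M]
    [IsManifold (𝓡∂ n) ∞ M] [MeasurableSpace M] (P : One n N M) (f : M → Fib N)
    (u : ℕ → M → Fib N) (p : M) (z : E n) (r : ℝ) (v : E n → Fib N) : Prop where
  smooth : ContDiffOn ℝ ∞ v (Bx z r)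
  eqn : ∀ x ∈ Bo z r, Lop (P.loc p) v x = 0
  bd : ∀ x ∈ Bx z r, x 0 = 0 → v x = lu (𝓡∂ n) p f x
  int : ∀ k, IntegrableOn (fun x => ‖lu (𝓡∂ n) p (u k) x - v x‖ ^ 2) (Bo z r)
  lim : Tendsto (fun k => ∫ x in Bo z r, ‖lu (𝓡∂ n) p (u k) x - v x‖ ^ 2) atTop (𝓝 0)

/-- (LOC) local limits in every chart; from the rows above. Owner helper238. -/
def RowLOC : Prop := ∀ (n N : ℕ) [NeZero n] (M : Type u) [TopologicalSpace M]
  [ChartedSpace (EuclideanHalfSpace n) M] [IsManifold (𝓡∂ n) ∞ M] [T2Space M] [CompactSpace M]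
  [ConnectedSpace M] [MeasurableSpace M] [BorelSpace M] (P : One n N M),
  ((𝓡∂ n).boundary M).Nonempty → ∀ f : M → Fib N, SmS n f →
  ∃ u : ℕ → M → Fib N, (∀ k, SmS n (u k)) ∧ ∀ (p : M), ∀ z ∈ tg n p,
    ∃ (r : ℝ) (v : E n → Fib N), 0 < r ∧ closure (Bx z r) ⊆ tg n p ∧ LocLim P f u p z r v

/-- (GLU, row 9, first half) local limits define a function on `M`. Owner helper794 or
helper238. -/
def RowGLU : Prop := ∀ (n N : ℕ) [NeZero n] (M : Type u) [TopologicalSpace M]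
  [ChartedSpace (EuclideanHalfSpace n) M] [IsManifold (𝓡∂ n) ∞ M] [T2Space M] [CompactSpace M]
  [ConnectedSpace M] [MeasurableSpace M] [BorelSpace M] (P : One n N M) (f : M → Fib N)
  (u : ℕ → M → Fib N), (∀ k, SmS n (u k)) →
  (∀ (p : M), ∀ z ∈ tg n p, ∃ (r : ℝ) (v : E n → Fib N), 0 < r ∧ closure (Bx z r) ⊆ tg n p ∧
    LocLim P f u p z r v) →
  ∃ U : M → Fib N,
    (∀ p, ContDiffOn ℝ ∞ (lu (𝓡∂ n) p U) (tg n p ∩ {y | 0 < y 0})) ∧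
    (∀ p, ∀ y ∈ tg n p, 0 < y 0 → Lop (P.loc p) (lu (𝓡∂ n) p U) y = 0) ∧
    ∀ p, ∀ z ∈ tg n p, z 0 = 0 → ∃ r > 0, HB z r ⊆ tg n p ∧ ∃ w : E n → Fib N,
      ContDiffOn ℝ ∞ w (HB z r) ∧ (∀ y ∈ HB z r, 0 < y 0 → w y = lu (𝓡∂ n) p U y) ∧
      ∀ y ∈ HB z r, y 0 = 0 → w y = lu (𝓡∂ n) p f y

/-- (ASM, row 9, second half) the function is the harmonic extension. Owner helper772. -/
def RowASM : Prop := ∀ (n N : ℕ) [NeZero n] (M : Type u) [TopologicalSpace M]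
  [ChartedSpace (EuclideanHalfSpace n) M] [IsManifold (𝓡∂ n) ∞ M] [T2Space M] [CompactSpace M]
  [MeasurableSpace M] [BorelSpace M] (P : One n N M) (f U : M → Fib N), SmS n f →
  (∀ p, ContDiffOn ℝ ∞ (lu (𝓡∂ n) p U) (tg n p ∩ {y | 0 < y 0})) →
  (∀ p, ∀ y ∈ tg n p, 0 < y 0 → Lop (P.loc p) (lu (𝓡∂ n) p U) y = 0) →
  (∀ p, ∀ z ∈ tg n p, z 0 = 0 → ∃ r > 0, HB z r ⊆ tg n p ∧ ∃ w : E n → Fib N,
    ContDiffOn ℝ ∞ w (HB z r) ∧ (∀ y ∈ HB z r, 0 < y 0 → w y = lu (𝓡∂ n) p U y) ∧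
    ∀ y ∈ HB z r, y 0 = 0 → w y = lu (𝓡∂ n) p f y) →
  ∃ u : M → Fib N, P.Harm f u

/-- (SOLV) the Dirichlet problem has a smooth solution. -/
def SOLV : Prop := ∀ (n N : ℕ) [NeZero n] (M : Type u) [TopologicalSpace M]
  [ChartedSpace (EuclideanHalfSpace n) M] [IsManifold (𝓡∂ n) ∞ M] [T2Space M] [CompactSpace M]
  [ConnectedSpace M] [MeasurableSpace M] [BorelSpace M] (P : One n N M),
  ((𝓡∂ n).boundary M).Nonempty → ∀ f : M → Fib N, SmS n f → ∃ u : M → Fib N, P.Harm f u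

/-- (FORM) the shape of the assembly. -/
theorem solv_of (h1 : RowLOC.{u}) (h2 : RowGLU.{u}) (h3 : RowASM.{u}) : SOLV.{u} := by
  intro n N _ M _ _ _ _ _ _ _ _ P hb f hf
  obtain ⟨u, hu, hl⟩ := h1 n N M P hb f hf
  obtain ⟨U, a, b, c⟩ := h2 n N M P f u hu hl
  exact h3 n N M P f U hf a b c

end Vale.Agent.P088.DM
end
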