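import Vale.Agent.P088.R2.H238.DM.Loc
import Vale.Agent.P088.R2.H404.DM.J1
import Vale.Agent.P088.R2.H856.DM.Reg
import Vale.Agent.P088.R2.H772.DM.Rows
import Vale.Agent.P088.R2.H747.DM.CH
import Vale.Agent.P088.R2.H349.DM.RowWeak
import Vale.Agent.P088.R2.H673.DM.TR
import Vale.Agent.P088.R2.H772.DM.Glu

/-!
# P088, SOLV: assembly of the rows
-/

set_option linter.all false

open Manifold MeasureTheory Set Filter Topology
open scoped ContDiff

noncomputable section

namespace Vale.Agent.P088.DM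

universe u

/-- SOLV from the open rows. -/
theorem solv_rows (h6 : ∀ (n : ℕ) [NeZero n], R2.H856.DM.Loc.Row6 n) (hW : RowWEAK)
    (hTR : RowTR) (hG : RowGLU.{u}) : SOLV.{u} :=
  solv Vale.Agent.P088.H772.rowMIN H747.rowCH hW hTR
    (H404.rowBDRY_of fun n _ ι _ r a W hE hC r' hr' hr al =>
      R2.H856.DM.Loc.reg_of_row6 (h6 n) ι r a W (hr'.trans hr) hE hC r' hr' hr al)
    hG Vale.Agent.P088.H772.rowASM

/-- SOLV from row 6. -/
theorem solv_row6 (h6 : ∀ (n : ℕ) [NeZero n], R2.H856.DM.Loc.Row6 n) : SOLV.{u} :=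
  solv_rows h6 Vale.Agent.P088.H349.DM.rowWEAK H673.rowTR Vale.Agent.P088.H772.rowGLU

end Vale.Agent.P088.DM
end
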