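import Vale.Agent.P088.R2.H238.DM.Solv
import Vale.Agent.P088.R2.H850.DM.DqF
import Vale.Agent.P088.R2.H856.DM.Row6
import Vale.Agent.P088.R2.H558.DM.Eq1

/-!
# P088, SOLV: the last step
-/

set_option linter.all false

noncomputable section

namespace Vale.Agent.P088.DM

universe u

/-- SOLV from the equation of the tangential derivatives. -/
theorem solv_eq1 (h : ∀ (n : ℕ) [NeZero n], R2.H856.DM.Loc.Eq1 n) : SOLV.{u} :=
  solv_row6 fun n _ => R2.H856.DM.Loc.row6_of (R2.H850.DM.dqB n) (h n)

/-- **SOLV**: the Dirichlet problem has a smooth solution. -/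
theorem solv_thm : SOLV.{u} := solv_eq1 fun n _ => R2.H558.DM.eq1 n

end Vale.Agent.P088.DM
end
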